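import Vale.Agent.Util.Pack

/-!
# More on packed integer sequences: decoding signed entries, rows
-/

namespace Vale.Agent.Util.Pack

open Finset

theorem pack_inj' {X : ℤ} (hX : 0 < X) : ∀ (K : ℕ) (f g : ℕ → ℤ),
    (∀ k < K, |f k - g k| < X) → pack X K f = pack X K g → ∀ k < K, f k = g k := by
  intro K
  induction K with
  | zero => intro f g _ _ k hk; omega
  | succ K ih =>
    intro f g hfg h
    rw [pack_succ', pack_succ'] at h
    have h0 : f 0 = g 0 := by
      have hdvd : X ∣ f 0 - g 0 :=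
        ⟨pack X K (fun k => g (k + 1)) - pack X K (fun k => f (k + 1)), by linarith⟩
      have := Int.eq_zero_of_abs_lt_dvd hdvd (hfg 0 (Nat.succ_pos K))
      linarith
    have h1 : pack X K (fun k => f (k + 1)) = pack X K (fun k => g (k + 1)) := by
      have : X * pack X K (fun k => f (k + 1)) = X * pack X K (fun k => g (k + 1)) := by linarith
      exact mul_left_cancel₀ (ne_of_gt hX) this
    have ih' := ih (fun k => f (k + 1)) (fun k => g (k + 1))
      (fun k hk => hfg (k + 1) (Nat.succ_lt_succ hk)) h1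
    intro k hk
    cases k with
    | zero => exact h0
    | succ k => exact ih' k (Nat.lt_of_succ_lt_succ hk)

theorem mask_eq_pack (w : ℕ) : ∀ K : ℕ,
    (mask w K : ℤ) = pack ((2 : ℤ) ^ w) K (fun _ => (2 : ℤ) ^ (w - 1)) := by
  intro K
  induction K with
  | zero => simp [mask, pack]
  | succ K ih =>
    rw [pack_succ', ← ih, mask]
    push_cast
    ring

theorem pack_bounds {X : ℤ} (hX : 0 < X) : ∀ (K : ℕ) (f : ℕ → ℤ),
    (∀ k < K, 0 ≤ f k ∧ f k < X) → 0 ≤ pack X K f ∧ pack X K f < X ^ K := by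
  intro K
  induction K with
  | zero => intro f _; simp [pack]
  | succ K ih =>
    intro f hf
    rw [pack_succ']
    obtain ⟨h1, h2⟩ := ih (fun k => f (k + 1)) (fun k hk => hf (k + 1) (Nat.succ_lt_succ hk))
    obtain ⟨h3, h4⟩ := hf 0 (Nat.succ_pos K)
    constructor
    · positivity
    · have h5 : pack X K (fun k => f (k + 1)) + 1 ≤ X ^ K := h2
      have h6 : X * (pack X K (fun k => f (k + 1)) + 1) ≤ X * X ^ K :=
        mul_le_mul_of_nonneg_left h5 hX.le
      rw [pow_succ']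
      linarith

/-- A closed formula for the mask. -/
def maskF (w K : ℕ) : ℕ := 2 ^ (w - 1) * ((2 ^ w) ^ K - 1) / (2 ^ w - 1)

theorem mask_eq_maskF {w : ℕ} (hw : 0 < w) (K : ℕ) : mask w K = maskF w K := by
  obtain ⟨Z, hZ⟩ : ∃ Z, 2 ^ w = Z + 1 := ⟨2 ^ w - 1, by have : 0 < 2 ^ w := by positivity
                                                        omega⟩
  have hZpos : 0 < Z := by
    have : 2 ^ 1 ≤ 2 ^ w := Nat.pow_le_pow_right (by norm_num) hw
    omega
  have key : ∀ K, mask w K * Z + 2 ^ (w - 1) = 2 ^ (w - 1) * (Z + 1) ^ K := by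
    intro K
    induction K with
    | zero => simp [mask]
    | succ K ih =>
      rw [mask, hZ, pow_succ, ← mul_assoc, ← ih]
      ring
  unfold maskF
  rw [hZ, Nat.add_sub_cancel]
  symm
  apply Nat.div_eq_of_eq_mul_left hZpos
  have h1 : 1 ≤ (Z + 1) ^ K := Nat.one_le_pow _ _ (by omega)
  rw [Nat.mul_sub, mul_one, ← key K, Nat.add_sub_cancel]

/-- Decoding of a packed sequence with small (signed) entries. -/
theorem decode {w K : ℕ} (hw : 0 < w) (f : ℕ → ℤ) (hf : ∀ k < K, 2 * |f k| < (2 : ℤ) ^ w)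
    (N : ℤ) (hN : pack ((2 : ℤ) ^ w) K f = N) :
    ∀ k < K, f k = (dig w (N + (maskF w K : ℤ)).toNat k : ℤ) - (2 : ℤ) ^ (w - 1) := by
  rw [← mask_eq_maskF hw]
  have h2 : (2 : ℤ) ^ w = 2 * 2 ^ (w - 1) := by
    rw [← pow_succ']
    congr 1
    omega
  have hg : ∀ k < K, 0 ≤ f k + (2 : ℤ) ^ (w - 1) ∧ f k + (2 : ℤ) ^ (w - 1) < (2 : ℤ) ^ w := by
    intro k hk
    have h1 := hf k hk
    have h3 := abs_le.mp (le_refl |f k|)
    constructor <;> linarith [h3.1, h3.2]
  have hp : pack ((2 : ℤ) ^ w) K (fun k => f k + (2 : ℤ) ^ (w - 1)) = N + (mask w K : ℤ) := by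
    rw [pack_add, hN, mask_eq_pack]
  obtain ⟨b1, b2⟩ := pack_bounds (by positivity) K _ hg
  rw [hp] at b1 b2
  set M := (N + (mask w K : ℤ)).toNat with hM
  have hMc : (M : ℤ) = N + (mask w K : ℤ) := Int.toNat_of_nonneg b1
  have hMlt : M < (2 ^ w) ^ K := by
    have : (M : ℤ) < ((2 ^ w) ^ K : ℕ) := by rw [hMc]; push_cast; exact b2
    exact_mod_cast this
  have h3 := pack_dig w K M hMlt
  have h4 := pack_inj' (X := (2 : ℤ) ^ w) (by positivity) K (fun k => f k + (2 : ℤ) ^ (w - 1))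
    (fun k => (dig w M k : ℤ)) ?_ (by rw [hp, h3, hMc])
  · intro k hk
    have := h4 k hk
    linarith
  · intro k hk
    obtain ⟨g1, g2⟩ := hg k hk
    have d1 : (0 : ℤ) ≤ (dig w M k : ℤ) := by positivity
    have d2 : (dig w M k : ℤ) < (2 : ℤ) ^ w := by
      have : dig w M k < 2 ^ w := Nat.mod_lt _ (by positivity)
      exact_mod_cast this
    rw [abs_lt]
    constructor <;> linarith

/-- The number formed by the digits `S * r, ..., S * r + S - 1`. -/
def row (w S N r : ℕ) : ℕ := (N >>> (w * S * r)) % 2 ^ (w * S)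

theorem dig_row (w S N r a : ℕ) (ha : a < S) : dig w (row w S N r) a = dig w N (S * r + a) := by
  unfold dig row
  rw [Nat.shiftRight_eq_div_pow, ← pow_mul, ← pow_mul]
  have h1 : 2 ^ (w * S) = 2 ^ (w * a) * 2 ^ (w * (S - a)) := by
    rw [← pow_add, ← Nat.mul_add]
    congr 2
    omega
  rw [h1, Nat.mod_mul_right_div_self, Nat.mod_mod_of_dvd, Nat.div_div_eq_div_mul, ← pow_add]
  · congr 3
    ring
  · apply pow_dvd_pow
    exact Nat.le_mul_of_pos_right w (by omega)

end Vale.Agent.Util.Pack
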