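import Vale.Agent.Util.Polya
import Vale.Agent.Util.PackMore

/-!
# Kernel-friendly checks for polynomial identities and for Polya-type positivity

* `evZ w S e` is the value of the expression `e` at `(1, X, X ^ S, X ^ (S * S))`, `X = 2 ^ w`.
* `ev_eq_of_pit`: two homogeneous expressions with the same value `evZ` have the same value
  everywhere.
* `polya_bilinear`: if all coefficients of `∑ U_i(ν) V_i(ν')` are nonnegative (a check that works
  with large numbers), then `0 ≤ ∑ U_i(ν) V_i(ν')` for all `ν, ν' ≥ 0`.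
-/

namespace Vale.Agent.Util.Polya

open MvPolynomial Finset Pack

/-- The exponent of `X` that is substituted for the variable `i`. -/
def vexp (S : ℕ) (i : Fin 4) : ℕ :=
  match i.val with
  | 0 => 0
  | 1 => 1
  | 2 => S
  | _ => S * S

/-- The value at the point of the Kronecker substitution, `X = 2 ^ w`. -/
def evZ (w S : ℕ) : PE → ℤ
  | .v i => Int.ofNat (2 ^ (w * vexp S i))
  | .c z => z
  | .add a b => evZ w S a + evZ w S b
  | .mul a b => evZ w S a * evZ w S b
  | .pow a n => evZ w S a ^ n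

theorem evZ_eq (w S : ℕ) (e : PE) : evZ w S e = PE.ev (pt ((2 : ℤ) ^ w) S) e := by
  induction e with
  | v i =>
    fin_cases i <;> simp [evZ, vexp, pt, PE.ev, pow_mul]
  | c z => simp [evZ, PE.ev]
  | add a b iha ihb => simp [evZ, PE.ev, iha, ihb]
  | mul a b iha ihb => simp [evZ, PE.ev, iha, ihb]
  | pow a n iha => simp [evZ, PE.ev, iha]

theorem evZ_pack (w S : ℕ) (e : PE) (hw : e.wf = true) (hS : e.deg < S) :
    pack ((2 : ℤ) ^ w) (S * S * S) (cf e.den e.deg S) = evZ w S e := by
  rw [evZ_eq, ev_pt _ e S hw hS]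

/-- The check for polynomial identities. -/
def pit (w S : ℕ) (e e' : PE) : Bool :=
  e.wf && e'.wf && Nat.beq e.deg e'.deg && Nat.blt e.deg S && Nat.blt (2 * e.nrm) (2 ^ w) &&
    Nat.blt (2 * e'.nrm) (2 ^ w) && decide (evZ w S e = evZ w S e')

theorem ev_eq_of_pit {w S : ℕ} {e e' : PE} (h : pit w S e e' = true) {R : Type} [CommRing R]
    (p : Fin 4 → R) : PE.ev p e = PE.ev p e' := by
  simp only [pit, Bool.and_eq_true, Nat.beq_eq, Nat.blt_eq, decide_eq_true_eq] at h
  obtain ⟨⟨⟨⟨⟨⟨h1, h2⟩, h3⟩, h4⟩, h5⟩, h6⟩, h7⟩ := h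
  have h4' : e'.deg < S := h3 ▸ h4
  rw [PE.expand p e S h1 h4, PE.expand p e' S h2 h4', ← h3]
  apply sum_congr rfl
  intro k hk
  have hb : ∀ (e : PE) (D : ℕ), 2 * e.nrm < 2 ^ w → ∀ k < S * S * S,
      2 * |cf e.den D S k| < (2 : ℤ) ^ w := by
    intro e D he k _
    have h1 := abs_cf_le e D S k
    have h2 : (2 * (e.nrm : ℤ)) < (2 : ℤ) ^ w := by exact_mod_cast he
    linarith
  have := pack_inj (X := (2 : ℤ) ^ w) (by positivity) (S * S * S) (cf e.den e.deg S)
    (cf e'.den e.deg S) (hb e _ h5) (hb e' _ h6)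
    (by rw [evZ_pack w S e h1 h4, h7, ← evZ_pack w S e' h2 h4', h3]) k (mem_range.mp hk)
  rw [this]

/-! ### The bilinear check -/

/-- The coefficients of `∑ U(ν) V(ν')`. -/
noncomputable def Acf (D D' S : ℕ) (L : List (PE × PE)) (k j : ℕ) : ℤ :=
  (L.map fun uv => cf uv.1.den D S k * cf uv.2.den D' S j).sum

/-- A bound for the coefficients. -/
def bnd (L : List (PE × PE)) : ℕ := (L.map fun uv => uv.1.nrm * uv.2.nrm).sum

/-- All expressions are homogeneous of the right degrees, and the first ones are small. -/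
def good (D D' w : ℕ) (L : List (PE × PE)) : Bool :=
  L.all fun uv => uv.1.wf && uv.2.wf && Nat.beq uv.1.deg D && Nat.beq uv.2.deg D' &&
    Nat.blt (2 * uv.1.nrm) (2 ^ w)

theorem good_cons {D D' w : ℕ} {uv : PE × PE} {L : List (PE × PE)} (h : good D D' w (uv :: L) = true) :
    (uv.1.wf = true ∧ uv.2.wf = true ∧ uv.1.deg = D ∧ uv.2.deg = D' ∧ 2 * uv.1.nrm < 2 ^ w) ∧
      good D D' w L = true := by
  simp only [good, List.all_cons, Bool.and_eq_true, Nat.beq_eq, Nat.blt_eq] at h
  obtain ⟨⟨⟨⟨⟨h1, h2⟩, h3⟩, h4⟩, h5⟩, h6⟩ := h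
  exact ⟨⟨h1, h2, h3, h4, h5⟩, by simpa [good] using h6⟩

theorem sum_expand {R : Type} [CommRing R] (p p' : Fin 4 → R) (D D' S w : ℕ) (hD : D < S)
    (hD' : D' < S) : ∀ L : List (PE × PE), good D D' w L = true →
    (L.map fun uv => PE.ev p uv.1 * PE.ev p' uv.2).sum =
      ∑ k ∈ range (S * S * S), ∑ j ∈ range (S * S * S),
        (Acf D D' S L k j : R) * (mono p D S k * mono p' D' S j) := by
  intro L
  induction L with
  | nil => intro _; simp [Acf]
  | cons uv L ih =>
    intro h
    obtain ⟨⟨h1, h2, h3, h4, _⟩, h6⟩ := good_cons h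
    rw [List.map_cons, List.sum_cons, ih h6, PE.expand p uv.1 S h1 (h3 ▸ hD),
      PE.expand p' uv.2 S h2 (h4 ▸ hD'), h3, h4, Finset.sum_mul_sum, ← Finset.sum_add_distrib]
    apply sum_congr rfl
    intro k _
    rw [← Finset.sum_add_distrib]
    apply sum_congr rfl
    intro j _
    simp only [Acf, List.map_cons, List.sum_cons]
    push_cast
    ring

theorem pack_Acf (D D' S w : ℕ) (hD' : D' < S) (k : ℕ) : ∀ L : List (PE × PE),
    good D D' w L = true →
    pack ((2 : ℤ) ^ w) (S * S * S) (Acf D D' S L k) =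
      (L.map fun uv => cf uv.1.den D S k * evZ w S uv.2).sum := by
  intro L
  induction L with
  | nil => intro _; simp [Acf, pack]
  | cons uv L ih =>
    intro h
    obtain ⟨⟨_, h2, _, h4, _⟩, h6⟩ := good_cons h
    rw [List.map_cons, List.sum_cons, ← ih h6, ← evZ_pack w S uv.2 h2 (h4 ▸ hD'), h4, ← pack_smul,
      ← pack_add]
    congr 1

theorem abs_Acf_le (D D' S : ℕ) (k j : ℕ) : ∀ L : List (PE × PE),
    |Acf D D' S L k j| ≤ bnd L := by
  intro L
  induction L with
  | nil => simp [Acf, bnd]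
  | cons uv L ih =>
    simp only [Acf, bnd, List.map_cons, List.sum_cons] at ih ⊢
    refine (abs_add_le _ _).trans ?_
    rw [Nat.cast_add, Nat.cast_mul]
    apply add_le_add _ ih
    rw [abs_mul]
    exact mul_le_mul (abs_cf_le _ _ _ _) (abs_cf_le _ _ _ _) (abs_nonneg _) (by positivity)

/-- The numbers with which the check works: the shifted values of the `U` and the values of the
`V`. -/
def prep (w S : ℕ) (L : List (PE × PE)) : List (ℕ × ℤ) :=
  L.map fun uv => ((evZ w S uv.1 + Int.ofNat (maskF w (S * S * S))).toNat, evZ w S uv.2)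

def rows (w S r : ℕ) (P : List (ℕ × ℤ)) : List (ℕ × ℤ) := P.map fun nv => (row w S nv.1 r, nv.2)

def tk (w a : ℕ) (off : ℤ) : List (ℕ × ℤ) → ℤ
  | [] => 0
  | nv :: l => (Int.ofNat (dig w nv.1 a) - off) * nv.2 + tk w a off l

def okT (XK M : ℕ) : ℤ → Bool
  | Int.ofNat n => Nat.blt n XK && Nat.beq (Nat.land n M) 0
  | Int.negSucc _ => false

def loopA (w XK M : ℕ) (off : ℤ) (P : List (ℕ × ℤ)) : ℕ → Bool
  | 0 => true
  | n + 1 => okT XK M (tk w n off P) && loopA w XK M off P n

def checkRow (w S D XK M : ℕ) (off : ℤ) (P : List (ℕ × ℤ)) (r : ℕ) : Bool :=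
  loopA w XK M off (rows w S r P) (D + 1 - (r % S + r / S))

def checkRows (w S D XK M : ℕ) (off : ℤ) (P : List (ℕ × ℤ)) : ℕ → ℕ → Bool
  | _, 0 => true
  | r, n + 1 => checkRow w S D XK M off P r && checkRows w S D XK M off P (r + 1) n

/-- The check of the rows `r0, ..., r0 + n - 1` (a row consists of the coefficients of the
monomials `ν ^ k ν' ^ j` with `k / S = r`). -/
def check (w S D : ℕ) (L : List (PE × PE)) (r0 n : ℕ) : Bool :=
  checkRows w S D ((2 ^ w) ^ (S * S * S)) (maskF w (S * S * S)) (Int.ofNat (2 ^ (w - 1)))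
    (prep w S L) r0 n

theorem checkRows_spec {w S D XK M : ℕ} {off : ℤ} {P : List (ℕ × ℤ)} : ∀ (n r0 : ℕ),
    checkRows w S D XK M off P r0 n = true → ∀ r, r0 ≤ r → r < r0 + n →
    checkRow w S D XK M off P r = true := by
  intro n
  induction n with
  | zero => intro r0 _ r h1 h2; omega
  | succ n ih =>
    intro r0 h r h1 h2
    simp only [checkRows, Bool.and_eq_true] at h
    rcases Nat.eq_or_lt_of_le h1 with h3 | h3
    · rw [← h3]; exact h.1
    · exact ih (r0 + 1) h.2 r h3 (by omega)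

theorem checkRows_append {w S D XK M : ℕ} {off : ℤ} {P : List (ℕ × ℤ)} : ∀ (n m r0 : ℕ),
    checkRows w S D XK M off P r0 n = true → checkRows w S D XK M off P (r0 + n) m = true →
    checkRows w S D XK M off P r0 (n + m) = true := by
  intro n
  induction n with
  | zero => intro m r0 _ h; simpa using h
  | succ n ih =>
    intro m r0 h1 h2
    simp only [checkRows, Bool.and_eq_true] at h1
    have : n + 1 + m = (n + m) + 1 := by omega
    rw [this]
    simp only [checkRows, Bool.and_eq_true]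
    refine ⟨h1.1, ih m (r0 + 1) h1.2 ?_⟩
    have e : r0 + 1 + n = r0 + (n + 1) := by omega
    rw [e]; exact h2

theorem check_append {w S D : ℕ} {L : List (PE × PE)} {r0 n m : ℕ}
    (h1 : check w S D L r0 n = true) (h2 : check w S D L (r0 + n) m = true) :
    check w S D L r0 (n + m) = true :=
  checkRows_append n m r0 h1 h2

theorem loopA_spec {w XK M : ℕ} {off : ℤ} {P : List (ℕ × ℤ)} : ∀ n : ℕ,
    loopA w XK M off P n = true → ∀ a < n, okT XK M (tk w a off P) = true := by
  intro n
  induction n with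
  | zero => intro _ a ha; omega
  | succ n ih =>
    intro h a ha
    simp only [loopA, Bool.and_eq_true] at h
    rcases Nat.eq_or_lt_of_le (Nat.le_of_lt_succ ha) with h3 | h3
    · rw [h3]; exact h.1
    · exact ih h.2 a h3

theorem tk_spec (D D' S w : ℕ) (hw : 0 < w) (hD : D < S) (r a : ℕ) (ha : a < S)
    (hr : S * r + a < S * S * S) : ∀ L : List (PE × PE), good D D' w L = true →
    tk w a (Int.ofNat (2 ^ (w - 1))) (rows w S r (prep w S L)) =
      (L.map fun uv => cf uv.1.den D S (S * r + a) * evZ w S uv.2).sum := by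
  intro L
  induction L with
  | nil => intro _; simp [tk, rows, prep]
  | cons uv L ih =>
    intro h
    obtain ⟨⟨h1, _, h3, _, h5⟩, h6⟩ := good_cons h
    have ih' := ih h6
    simp only [rows, prep, List.map_cons, tk, List.sum_cons] at ih' ⊢
    rw [ih', dig_row w S _ r a ha]
    congr 2
    have hb : ∀ k < S * S * S, 2 * |cf uv.1.den D S k| < (2 : ℤ) ^ w := by
      intro k _
      have h1 := abs_cf_le uv.1 D S k
      have h2 : (2 * (uv.1.nrm : ℤ)) < (2 : ℤ) ^ w := by exact_mod_cast h5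
      linarith
    have := decode hw (cf uv.1.den D S) hb (evZ w S uv.1)
      (by rw [← h3]; exact evZ_pack w S uv.1 h1 (h3 ▸ hD)) (S * r + a) hr
    rw [this]
    simp

theorem Acf_nonneg (w S D D' : ℕ) (L : List (PE × PE)) (hw : 0 < w) (hD : D < S) (hD' : D' < S)
    (hg : good D D' w L = true) (hb : 2 * bnd L < 2 ^ w)
    (hc : check w S D L 0 (S * S) = true) (k j : ℕ) (hk : k < S * S * S) (hj : j < S * S * S) :
    0 ≤ Acf D D' S L k j := by
  have hS : 0 < S := by omega
  by_cases hv : e1 S k + e2 S k + e3 S k ≤ D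
  · -- the row of `k`
    have hka : S * (k / S) + k % S = k := Nat.div_add_mod k S
    have ha : k % S < S := Nat.mod_lt _ hS
    have hr : k / S < S * S := by
      rw [Nat.div_lt_iff_lt_mul hS]
      exact hk
    have h1 := checkRows_spec (S * S) 0 hc (k / S) (Nat.zero_le _) (by omega)
    have h2 := loopA_spec _ h1 (k % S) (by
      unfold e1 e2 e3 at hv
      rw [← Nat.div_div_eq_div_mul] at hv
      omega)
    rw [tk_spec D D' S w hw hD (k / S) (k % S) ha (by rw [hka]; exact hk) L hg, hka,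
      ← pack_Acf D D' S w hD' k L hg] at h2
    -- the sign test
    generalize hT : pack ((2 : ℤ) ^ w) (S * S * S) (Acf D D' S L k) = T at h2
    cases T with
    | negSucc n => simp [okT] at h2
    | ofNat n =>
      simp only [okT, Bool.and_eq_true, Nat.blt_eq, Nat.beq_eq] at h2
      refine nonneg_of_mask hw (Acf D D' S L k) n ?_ hT h2.1 ?_ j hj
      · intro j' _
        have h3 := abs_Acf_le D D' S k j' L
        have h4 : (2 * (bnd L : ℤ)) < (2 : ℤ) ^ w := by exact_mod_cast hb
        linarith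
      · rw [mask_eq_maskF hw]
        exact h2.2
  · have : Acf D D' S L k j = 0 := by
      unfold Acf
      apply List.sum_eq_zero
      intro x hx
      obtain ⟨uv, _, rfl⟩ := List.mem_map.mp hx
      simp [cf, hv]
    rw [this]

/-- **Positivity from nonnegative coefficients.** -/
theorem polya_bilinear (w S D D' : ℕ) (L : List (PE × PE)) (hw : 0 < w) (hD : D < S) (hD' : D' < S)
    (hg : good D D' w L = true) (hb : 2 * bnd L < 2 ^ w)
    (hc : check w S D L 0 (S * S) = true)
    (p p' : Fin 4 → ℝ) (hp : ∀ i, 0 ≤ p i) (hp' : ∀ i, 0 ≤ p' i) :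
    0 ≤ (L.map fun uv => PE.ev p uv.1 * PE.ev p' uv.2).sum := by
  rw [sum_expand p p' D D' S w hD hD' L hg]
  apply Finset.sum_nonneg
  intro k hk
  apply Finset.sum_nonneg
  intro j hj
  have h1 := Acf_nonneg w S D D' L hw hD hD' hg hb hc k j (mem_range.mp hk) (mem_range.mp hj)
  have h2 : (0 : ℝ) ≤ (Acf D D' S L k j : ℝ) := by exact_mod_cast h1
  have h3 : ∀ (q : Fin 4 → ℝ), (∀ i, 0 ≤ q i) → ∀ E m, 0 ≤ mono q E S m := by
    intro q hq E m
    unfold mono
    have := hq 0
    have := hq 1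
    have := hq 2
    have := hq 3
    positivity
  exact mul_nonneg h2 (mul_nonneg (h3 p hp D k) (h3 p' hp' D' j))

end Vale.Agent.Util.Polya
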