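import Vale.Agent.Util.PolyaCheck

/-!
# A kernel-friendly check for polynomial identities in four variables (not nec. homogeneous)

An expression `e` of total degree `< S` has the value `ev p e = ∑ k < S ^ 4, cf4 k * mono4 p k`, where
`k = a + S * b + S * S * c + S * S * S * d` codes the exponent vector `(a, b, c, d)`.  At the point
`(X, X ^ S, X ^ (S * S), X ^ (S * S * S))` the value is the packed sequence of the coefficients.
`ev_eq_of_pit4`: two expressions with the same value at this point (`X = 2 ^ w` large) have the same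
value everywhere.
-/

namespace Vale.Agent.Util.Polya

open MvPolynomial Finset Pack

/-- An upper bound for the total degree. -/
def PE.dg : PE → ℕ
  | .v _ => 1
  | .c _ => 0
  | .add a b => max (dg a) (dg b)
  | .mul a b => dg a + dg b
  | .pow a n => n * dg a

/-- All monomials of `f` have degree at most `D`. -/
def DegLe (f : MvPolynomial (Fin 4) ℤ) (D : ℕ) : Prop :=
  ∀ d : Fin 4 →₀ ℕ, coeff d f ≠ 0 → d 0 + d 1 + d 2 + d 3 ≤ D

theorem DegLe.mono {f : MvPolynomial (Fin 4) ℤ} {D E : ℕ} (hf : DegLe f D) (h : D ≤ E) :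
    DegLe f E := fun d hd => (hf d hd).trans h

theorem DegLe.add {f g : MvPolynomial (Fin 4) ℤ} {D : ℕ} (hf : DegLe f D) (hg : DegLe g D) :
    DegLe (f + g) D := by
  intro d hd
  rw [coeff_add] at hd
  by_cases h : coeff d f = 0
  · apply hg
    intro h'
    rw [h, h'] at hd
    exact hd rfl
  · exact hf d h

theorem DegLe.mul {f g : MvPolynomial (Fin 4) ℤ} {D E : ℕ} (hf : DegLe f D) (hg : DegLe g E) :
    DegLe (f * g) (D + E) := by
  intro d hd
  rw [coeff_mul] at hd
  obtain ⟨x, hx, hne⟩ := Finset.exists_ne_zero_of_sum_ne_zero hd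
  have h1 : coeff x.1 f ≠ 0 := left_ne_zero_of_mul hne
  have h2 : coeff x.2 g ≠ 0 := right_ne_zero_of_mul hne
  have h3 : x.1 + x.2 = d := Finset.HasAntidiagonal.mem_antidiagonal.mp hx
  have e1 := hf _ h1
  have e2 := hg _ h2
  rw [← h3]
  simp only [Finsupp.add_apply]
  omega

theorem DegLe.pow {f : MvPolynomial (Fin 4) ℤ} {D : ℕ} (hf : DegLe f D) (n : ℕ) :
    DegLe (f ^ n) (n * D) := by
  induction n with
  | zero =>
    intro d hd
    have := Hom.one d (by simpa using hd)
    omega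
  | succ n ih =>
    rw [pow_succ, Nat.succ_mul]
    exact ih.mul hf

theorem degLe_den (e : PE) : DegLe e.den e.dg := by
  induction e with
  | v i =>
    intro d hd
    have := hom_den (.v i) rfl d hd
    simp only [PE.deg] at this
    simp only [PE.dg]
    omega
  | c z =>
    intro d hd
    have := hom_den (.c z) rfl d hd
    simp only [PE.deg] at this
    omega
  | add a b iha ihb =>
    exact (iha.mono (le_max_left _ _)).add (ihb.mono (le_max_right _ _))
  | mul a b iha ihb => exact iha.mul ihb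
  | pow a n iha => exact iha.pow n

/-- The exponent vector coded by `k`. -/
noncomputable def dvec4 (S k : ℕ) : Fin 4 →₀ ℕ :=
  Finsupp.equivFunOnFinite.symm ![e1 S k, e2 S k, e3 S k % S, e3 S k / S]

noncomputable def cf4 (f : MvPolynomial (Fin 4) ℤ) (S k : ℕ) : ℤ := coeff (dvec4 S k) f

def mono4 {R : Type} [CommRing R] (p : Fin 4 → R) (S k : ℕ) : R :=
  p 0 ^ e1 S k * p 1 ^ e2 S k * p 2 ^ (e3 S k % S) * p 3 ^ (e3 S k / S)

theorem code_decode4 (S k : ℕ) :
    e1 S k + S * e2 S k + S * S * (e3 S k % S) + S * S * S * (e3 S k / S) = k := by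
  have h1 := code_decode S k
  have h2 := Nat.mod_add_div (e3 S k) S
  calc e1 S k + S * e2 S k + S * S * (e3 S k % S) + S * S * S * (e3 S k / S)
      = e1 S k + S * e2 S k + S * S * (e3 S k % S + S * (e3 S k / S)) := by ring
    _ = k := by rw [h2, h1]

theorem decode_code4 {S a b c d : ℕ} (ha : a < S) (hb : b < S) (hc : c < S) :
    e1 S (a + S * b + S * S * c + S * S * S * d) = a ∧
      e2 S (a + S * b + S * S * c + S * S * S * d) = b ∧
      e3 S (a + S * b + S * S * c + S * S * S * d) % S = c ∧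
      e3 S (a + S * b + S * S * c + S * S * S * d) / S = d := by
  have hS : 0 < S := by omega
  have h0 : a + S * b + S * S * c + S * S * S * d = a + S * b + S * S * (c + S * d) := by ring
  obtain ⟨h1, h2, h3⟩ := decode_code (S := S) (a := a) (b := b) (c := c + S * d) ha hb
  rw [h0, h1, h2, h3]
  refine ⟨rfl, rfl, ?_, ?_⟩
  · rw [Nat.add_mul_mod_self_left, Nat.mod_eq_of_lt hc]
  · rw [Nat.add_mul_div_left _ _ hS, Nat.div_eq_of_lt hc, Nat.zero_add]

theorem expand4 {R : Type} [CommRing R] (p : Fin 4 → R) (f : MvPolynomial (Fin 4) ℤ) (D S : ℕ)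
    (hf : DegLe f D) (hS : D < S) :
    aeval p f = ∑ k ∈ range (S * S * S * S), (cf4 f S k : R) * mono4 p S k := by
  rw [aeval_def, eval₂_eq']
  have hsup : ∀ d ∈ f.support, d 0 + d 1 + d 2 + d 3 ≤ D := fun d hd => hf d (mem_support_iff.mp hd)
  have hdv : ∀ d ∈ f.support, dvec4 S (d 0 + S * d 1 + S * S * d 2 + S * S * S * d 3) = d := by
    intro d hd
    have h := hsup d hd
    obtain ⟨h1, h2, h3, h4⟩ := decode_code4 (S := S) (a := d 0) (b := d 1) (c := d 2) (d := d 3)
      (by omega) (by omega) (by omega)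
    ext i
    unfold dvec4
    rw [h1, h2, h3, h4]
    fin_cases i <;> simp
  apply Finset.sum_of_injOn (fun d : Fin 4 →₀ ℕ => d 0 + S * d 1 + S * S * d 2 + S * S * S * d 3)
  · intro d hd d' hd' h
    have h1 := hdv d hd
    have h2 := hdv d' hd'
    simp only at h
    rw [← h1, ← h2, h]
  · intro d hd
    have h := hsup d hd
    simp only [coe_range, Set.mem_Iio]
    have h0 : d 0 ≤ S - 1 := by omega
    have h1 : d 1 ≤ S - 1 := by omega
    have h2 : d 2 ≤ S - 1 := by omega
    have h3 : d 3 ≤ S - 1 := by omega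
    obtain ⟨T, rfl⟩ : ∃ T, S = T + 1 := ⟨S - 1, by omega⟩
    simp only [Nat.add_sub_cancel] at h0 h1 h2 h3
    calc d 0 + (T + 1) * d 1 + (T + 1) * (T + 1) * d 2 + (T + 1) * (T + 1) * (T + 1) * d 3
        ≤ T + (T + 1) * T + (T + 1) * (T + 1) * T + (T + 1) * (T + 1) * (T + 1) * T := by gcongr
      _ < (T + 1) * (T + 1) * (T + 1) * (T + 1) := by nlinarith
  · intro k _ hk
    unfold cf4
    by_cases hc : coeff (dvec4 S k) f = 0
    · rw [hc]; simp
    · exfalso
      apply hk
      refine ⟨dvec4 S k, mem_support_iff.mpr hc, ?_⟩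
      have := code_decode4 S k
      simpa [dvec4] using this
  · intro d hd
    have h := hsup d hd
    obtain ⟨h1, h2, h3, h4⟩ := decode_code4 (S := S) (a := d 0) (b := d 1) (c := d 2) (d := d 3)
      (by omega) (by omega) (by omega)
    unfold cf4 mono4
    rw [hdv d hd, h1, h2, h3, h4, Fin.prod_univ_four]
    simp only [eq_intCast]

theorem PE.expand4 {R : Type} [CommRing R] (p : Fin 4 → R) (e : PE) (S : ℕ) (hS : e.dg < S) :
    PE.ev p e = ∑ k ∈ range (S * S * S * S), (cf4 e.den S k : R) * mono4 p S k := by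
  rw [PE.ev_eq]
  exact Polya.expand4 p e.den e.dg S (degLe_den e) hS

/-- The point of the Kronecker substitution. -/
def pt4 (X : ℤ) (S : ℕ) : Fin 4 → ℤ := ![X, X ^ S, X ^ (S * S), X ^ (S * S * S)]

theorem mono4_pt4 (X : ℤ) (S k : ℕ) : mono4 (pt4 X S) S k = X ^ k := by
  unfold mono4 pt4
  simp only [Matrix.cons_val_zero, Matrix.cons_val_one, Matrix.cons_val]
  rw [← pow_mul, ← pow_mul, ← pow_mul, ← pow_add, ← pow_add, ← pow_add, code_decode4]

def vexp4 (S : ℕ) (i : Fin 4) : ℕ :=
  match i.val with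
  | 0 => 1
  | 1 => S
  | 2 => S * S
  | _ => S * S * S

/-- The value at the point of the Kronecker substitution, `X = 2 ^ w`. -/
def evZ4 (w S : ℕ) : PE → ℤ
  | .v i => Int.ofNat (2 ^ (w * vexp4 S i))
  | .c z => z
  | .add a b => evZ4 w S a + evZ4 w S b
  | .mul a b => evZ4 w S a * evZ4 w S b
  | .pow a n => evZ4 w S a ^ n

theorem evZ4_eq (w S : ℕ) (e : PE) : evZ4 w S e = PE.ev (pt4 ((2 : ℤ) ^ w) S) e := by
  induction e with
  | v i =>
    fin_cases i <;> simp [evZ4, vexp4, pt4, PE.ev, pow_mul]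
  | c z => simp [evZ4, PE.ev]
  | add a b iha ihb => simp [evZ4, PE.ev, iha, ihb]
  | mul a b iha ihb => simp [evZ4, PE.ev, iha, ihb]
  | pow a n iha => simp [evZ4, PE.ev, iha]

theorem evZ4_pack (w S : ℕ) (e : PE) (hS : e.dg < S) :
    pack ((2 : ℤ) ^ w) (S * S * S * S) (cf4 e.den S) = evZ4 w S e := by
  rw [evZ4_eq, PE.expand4 _ e S hS]
  unfold pack
  apply sum_congr rfl
  intro k _
  rw [mono4_pt4]
  simp

/-- The check for polynomial identities in four variables. -/
def pit4 (w S : ℕ) (e e' : PE) : Bool :=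
  Nat.blt e.dg S && Nat.blt e'.dg S && Nat.blt (2 * e.nrm) (2 ^ w) &&
    Nat.blt (2 * e'.nrm) (2 ^ w) && decide (evZ4 w S e = evZ4 w S e')

theorem ev_eq_of_pit4 {w S : ℕ} {e e' : PE} (h : pit4 w S e e' = true) {R : Type} [CommRing R]
    (p : Fin 4 → R) : PE.ev p e = PE.ev p e' := by
  simp only [pit4, Bool.and_eq_true, Nat.blt_eq, decide_eq_true_eq] at h
  obtain ⟨⟨⟨⟨h1, h2⟩, h5⟩, h6⟩, h7⟩ := h
  rw [PE.expand4 p e S h1, PE.expand4 p e' S h2]
  apply sum_congr rfl
  intro k hk
  have hb : ∀ (e : PE), 2 * e.nrm < 2 ^ w → ∀ k < S * S * S * S,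
      2 * |cf4 e.den S k| < (2 : ℤ) ^ w := by
    intro e he k _
    have h1 := abs_coeff_le e (dvec4 S k)
    have h2 : (2 * (e.nrm : ℤ)) < (2 : ℤ) ^ w := by exact_mod_cast he
    unfold cf4
    linarith
  have := pack_inj (X := (2 : ℤ) ^ w) (by positivity) (S * S * S * S) (cf4 e.den S)
    (cf4 e'.den S) (hb e h5) (hb e' h6)
    (by rw [evZ4_pack w S e h1, h7, ← evZ4_pack w S e' h2]) k (mem_range.mp hk)
  rw [this]

end Vale.Agent.Util.Polya
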