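import Mathlib

/-!
# Packed integer sequences

A finite sequence of integers `f 0, ..., f (K-1)` is packed in the single integer
`pack X K f = ∑ k < K, f k * X ^ k`.  Packing is linear, so linear combinations of packed sequences
can be computed with a few operations on large numbers.  If all entries are smaller than `X / 2` in
absolute value, then the signs of all entries can be read off from the packed number.
-/

namespace Vale.Agent.Util.Pack

open Finset

/-- The sequence `f 0, ..., f (K-1)` packed in one integer, in base `X`. -/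
def pack (X : ℤ) (K : ℕ) (f : ℕ → ℤ) : ℤ := ∑ k ∈ range K, f k * X ^ k

theorem pack_zero (X : ℤ) (f : ℕ → ℤ) : pack X 0 f = 0 := by simp [pack]

theorem pack_succ' (X : ℤ) (K : ℕ) (f : ℕ → ℤ) :
    pack X (K + 1) f = f 0 + X * pack X K (fun k => f (k + 1)) := by
  unfold pack
  rw [sum_range_succ', mul_sum, add_comm]
  congr 1
  · simp
  · apply sum_congr rfl
    intro k _
    ring

theorem pack_add (X : ℤ) (K : ℕ) (f g : ℕ → ℤ) :
    pack X K (fun k => f k + g k) = pack X K f + pack X K g := by
  unfold pack
  rw [← sum_add_distrib]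
  apply sum_congr rfl
  intro k _
  ring

theorem pack_smul (X : ℤ) (K : ℕ) (c : ℤ) (f : ℕ → ℤ) :
    pack X K (fun k => c * f k) = c * pack X K f := by
  unfold pack
  rw [mul_sum]
  apply sum_congr rfl
  intro k _
  ring

/-- Two sequences with small entries and the same packed number are equal. -/
theorem pack_inj {X : ℤ} (hX : 0 < X) : ∀ (K : ℕ) (f g : ℕ → ℤ),
    (∀ k < K, 2 * |f k| < X) → (∀ k < K, 2 * |g k| < X) → pack X K f = pack X K g →
    ∀ k < K, f k = g k := by
  intro K
  induction K with
  | zero => intro f g _ _ _ k hk; omega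
  | succ K ih =>
    intro f g hf hg h
    rw [pack_succ', pack_succ'] at h
    have h0 : f 0 = g 0 := by
      have hdvd : X ∣ f 0 - g 0 :=
        ⟨pack X K (fun k => g (k + 1)) - pack X K (fun k => f (k + 1)), by linarith⟩
      have hlt : |f 0 - g 0| < X := by
        have h1 := hf 0 (Nat.succ_pos K)
        have h2 := hg 0 (Nat.succ_pos K)
        have h3 : |f 0 - g 0| ≤ |f 0| + |g 0| := abs_sub _ _
        linarith
      have := Int.eq_zero_of_abs_lt_dvd hdvd hlt
      linarith
    have h1 : pack X K (fun k => f (k + 1)) = pack X K (fun k => g (k + 1)) := by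
      have : X * pack X K (fun k => f (k + 1)) = X * pack X K (fun k => g (k + 1)) := by linarith
      exact mul_left_cancel₀ (ne_of_gt hX) this
    have ih' := ih (fun k => f (k + 1)) (fun k => g (k + 1))
      (fun k hk => hf (k + 1) (Nat.succ_lt_succ hk)) (fun k hk => hg (k + 1) (Nat.succ_lt_succ hk)) h1
    intro k hk
    cases k with
    | zero => exact h0
    | succ k => exact ih' k (Nat.lt_of_succ_lt_succ hk)

/-- The digits of a natural number in base `2 ^ w`. -/
def dig (w N k : ℕ) : ℕ := N / (2 ^ w) ^ k % 2 ^ w

theorem pack_dig (w : ℕ) : ∀ (K N : ℕ), N < (2 ^ w) ^ K →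
    pack ((2 : ℤ) ^ w) K (fun k => (dig w N k : ℤ)) = N := by
  intro K
  induction K with
  | zero =>
    intro N hN
    have : N = 0 := by simpa using hN
    subst this
    simp [pack]
  | succ K ih =>
    intro N hN
    rw [pack_succ']
    have hpos : 0 < 2 ^ w := by positivity
    have h1 : N / 2 ^ w < (2 ^ w) ^ K := by
      rw [Nat.div_lt_iff_lt_mul hpos]
      calc N < (2 ^ w) ^ (K + 1) := hN
        _ = (2 ^ w) ^ K * 2 ^ w := by ring
    have h2 := ih (N / 2 ^ w) h1
    have h3 : (fun k => (dig w N (k + 1) : ℤ)) = fun k => (dig w (N / 2 ^ w) k : ℤ) := by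
      funext k
      unfold dig
      rw [pow_succ', Nat.div_div_eq_div_mul]
    rw [h3, h2]
    unfold dig
    simp only [pow_zero, Nat.div_one]
    have := Nat.mod_add_div N (2 ^ w)
    exact_mod_cast this

/-- The number whose binary digits are the top binary digits of the `K` digits in base `2 ^ w`. -/
def mask (w : ℕ) : ℕ → ℕ
  | 0 => 0
  | K + 1 => 2 ^ (w - 1) + 2 ^ w * mask w K

theorem testBit_mask (w : ℕ) (hw : 0 < w) : ∀ (K k : ℕ), k < K →
    (mask w K).testBit (w * k + (w - 1)) = true := by
  intro K
  induction K with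
  | zero => intro k hk; omega
  | succ K ih =>
    intro k hk
    have hlt : 2 ^ (w - 1) < 2 ^ w := Nat.pow_lt_pow_right (by norm_num) (by omega)
    have hm : mask w (K + 1) = 2 ^ w * mask w K + 2 ^ (w - 1) := by rw [mask]; ring
    rw [hm, Nat.testBit_two_pow_mul_add _ hlt]
    cases k with
    | zero =>
      have : w * 0 + (w - 1) < w := by omega
      rw [if_pos this]
      simp [Nat.testBit_two_pow_self]
    | succ k =>
      have h1 : ¬ (w * (k + 1) + (w - 1) < w) := by
        have : w ≤ w * (k + 1) := Nat.le_mul_of_pos_right w (Nat.succ_pos k)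
        omega
      rw [if_neg h1]
      have h2 : w * (k + 1) + (w - 1) - w = w * k + (w - 1) := by
        have : w * (k + 1) = w * k + w := by ring
        omega
      rw [h2]
      exact ih k (Nat.lt_of_succ_lt_succ hk)

theorem dig_small {w N K : ℕ} (hw : 0 < w) (h : N &&& mask w K = 0) {k : ℕ} (hk : k < K) :
    2 * dig w N k < 2 ^ w := by
  have hb : N.testBit (w * k + (w - 1)) = false := by
    have h1 : (N &&& mask w K).testBit (w * k + (w - 1)) = false := by rw [h]; simp
    rw [Nat.testBit_and, testBit_mask w hw K k hk] at h1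
    simpa using h1
  have hd : (dig w N k).testBit (w - 1) = false := by
    unfold dig
    rw [Nat.testBit_mod_two_pow, ← pow_mul, Nat.testBit_div_two_pow]
    have : w - 1 < w := by omega
    simp only [this, decide_true, Bool.true_and]
    rw [add_comm] at hb
    exact hb
  have hlt : dig w N k < 2 ^ w := Nat.mod_lt _ (by positivity)
  by_contra hcon
  have hge : 2 ^ (w - 1) ≤ dig w N k := by
    have h2 : 2 ^ w = 2 * 2 ^ (w - 1) := by
      rw [← pow_succ']
      congr 1
      omega
    omega
  have h2 : 2 ^ w = 2 ^ (w - 1 + 1) := by congr 1; omega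
  rw [h2] at hlt
  have := Nat.testBit_of_two_pow_le_and_two_pow_add_one_gt hge hlt
  rw [this] at hd
  exact absurd hd (by decide)

/-- The sign test: if the packed number of a sequence with small entries is a natural number
smaller than `(2 ^ w) ^ K` that has no binary digit in common with the mask, then all entries of
the sequence are nonnegative. -/
theorem nonneg_of_mask {w K : ℕ} (hw : 0 < w) (f : ℕ → ℤ) (N : ℕ)
    (hf : ∀ k < K, 2 * |f k| < (2 : ℤ) ^ w) (hN : pack ((2 : ℤ) ^ w) K f = N)
    (hlt : N < (2 ^ w) ^ K) (hm : N &&& mask w K = 0) : ∀ k < K, 0 ≤ f k := by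
  have h1 := pack_dig w K N hlt
  have h2 : ∀ k < K, f k = (dig w N k : ℤ) := by
    apply pack_inj (by positivity) K f _ hf _ (by rw [hN, h1])
    intro k hk
    have := dig_small hw hm hk
    rw [abs_of_nonneg (by positivity)]
    exact_mod_cast this
  intro k hk
  rw [h2 k hk]
  positivity

end Vale.Agent.Util.Pack
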