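import Vale.Agent.Util.Pack

/-!
# Polynomial expressions in four variables and their coefficients

`PE` is a type of polynomial expressions in four variables with integer coefficients.  An
expression has a value `ev p e` at every point `p` of every commutative ring.  If the expression is
homogeneous of degree `D < S`, its value is `∑ k < S ^ 3, cf k * mono p k`, where `k` runs through
the codes `a + S * b + S * S * c` of the exponent vectors `(D - a - b - c, a, b, c)`.
-/

namespace Vale.Agent.Util.Polya

open MvPolynomial Finset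

/-- Polynomial expressions in four variables with integer coefficients. -/
inductive PE : Type
  | v (i : Fin 4)
  | c (z : ℤ)
  | add (a b : PE)
  | mul (a b : PE)
  | pow (a : PE) (n : ℕ)

namespace PE

/-- The polynomial denoted by an expression. -/
noncomputable def den : PE → MvPolynomial (Fin 4) ℤ
  | v i => X i
  | c z => C z
  | add a b => den a + den b
  | mul a b => den a * den b
  | pow a n => den a ^ n

/-- The value of an expression at a point of a commutative ring. -/
def ev {R : Type} [CommRing R] (p : Fin 4 → R) : PE → R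
  | v i => p i
  | c z => (z : R)
  | add a b => ev p a + ev p b
  | mul a b => ev p a * ev p b
  | pow a n => ev p a ^ n

theorem ev_eq {R : Type} [CommRing R] (p : Fin 4 → R) (e : PE) : ev p e = aeval p (den e) := by
  induction e with
  | v i => simp [ev, den]
  | c z => simp [ev, den]
  | add a b iha ihb => simp [ev, den, iha, ihb]
  | mul a b iha ihb => simp [ev, den, iha, ihb]
  | pow a n iha => simp [ev, den, iha]

/-- The degree of an expression (meaningful if the expression is well formed). -/
def deg : PE → ℕ
  | v _ => 1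
  | c _ => 0
  | add a _ => deg a
  | mul a b => deg a + deg b
  | pow a n => n * deg a

/-- Well formed expressions: only expressions of the same degree are added. -/
def wf : PE → Bool
  | v _ => true
  | c _ => true
  | add a b => wf a && wf b && Nat.beq (deg a) (deg b)
  | mul a b => wf a && wf b
  | pow a _ => wf a

/-- A bound for the sum of the absolute values of the coefficients. -/
def nrm : PE → ℕ
  | v _ => 1
  | c z => z.natAbs
  | add a b => nrm a + nrm b
  | mul a b => nrm a * nrm b
  | pow a n => nrm a ^ n

end PE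

/-- All monomials of `f` have degree `D`. -/
def Hom (f : MvPolynomial (Fin 4) ℤ) (D : ℕ) : Prop :=
  ∀ d : Fin 4 →₀ ℕ, coeff d f ≠ 0 → d 0 + d 1 + d 2 + d 3 = D

theorem Hom.add {f g : MvPolynomial (Fin 4) ℤ} {D : ℕ} (hf : Hom f D) (hg : Hom g D) :
    Hom (f + g) D := by
  intro d hd
  rw [coeff_add] at hd
  by_cases h : coeff d f = 0
  · apply hg
    intro h'
    rw [h, h'] at hd
    exact hd rfl
  · exact hf d h

theorem Hom.mul {f g : MvPolynomial (Fin 4) ℤ} {D E : ℕ} (hf : Hom f D) (hg : Hom g E) :
    Hom (f * g) (D + E) := by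
  intro d hd
  rw [coeff_mul] at hd
  obtain ⟨x, hx, hne⟩ := Finset.exists_ne_zero_of_sum_ne_zero hd
  have h1 : coeff x.1 f ≠ 0 := left_ne_zero_of_mul hne
  have h2 : coeff x.2 g ≠ 0 := right_ne_zero_of_mul hne
  have h3 : x.1 + x.2 = d := Finset.HasAntidiagonal.mem_antidiagonal.mp hx
  have e1 := hf _ h1
  have e2 := hg _ h2
  rw [← h3]
  simp only [Finsupp.add_apply]
  omega

theorem Hom.one : Hom 1 0 := by
  intro d hd
  have : (1 : MvPolynomial (Fin 4) ℤ) = C 1 := by simp
  rw [this, coeff_C] at hd
  split_ifs at hd with h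
  · rw [← h]; simp
  · exact absurd rfl hd

theorem Hom.pow {f : MvPolynomial (Fin 4) ℤ} {D : ℕ} (hf : Hom f D) (n : ℕ) :
    Hom (f ^ n) (n * D) := by
  induction n with
  | zero => simpa using Hom.one
  | succ n ih =>
    rw [pow_succ, Nat.succ_mul]
    exact ih.mul hf

theorem hom_den (e : PE) (h : e.wf = true) : Hom e.den e.deg := by
  induction e with
  | v i =>
    intro d hd
    rw [PE.den, coeff_X'] at hd
    split_ifs at hd with h1
    · rw [← h1]
      fin_cases i <;> simp [PE.deg]
    · exact absurd rfl hd
  | c z =>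
    intro d hd
    rw [PE.den, coeff_C] at hd
    split_ifs at hd with h1
    · rw [← h1]; simp [PE.deg]
    · exact absurd rfl hd
  | add a b iha ihb =>
    simp only [PE.wf, Bool.and_eq_true, Nat.beq_eq] at h
    obtain ⟨⟨h1, h2⟩, h3⟩ := h
    have hb := ihb h2
    rw [← h3] at hb
    exact (iha h1).add hb
  | mul a b iha ihb =>
    simp only [PE.wf, Bool.and_eq_true] at h
    exact (iha h.1).mul (ihb h.2)
  | pow a n iha =>
    exact (iha h).pow n

/-- `F` has nonnegative coefficients that dominate the absolute values of those of `f`. -/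
def Maj (f F : MvPolynomial (Fin 4) ℤ) : Prop := ∀ d, |coeff d f| ≤ coeff d F

theorem Maj.add {f g F G : MvPolynomial (Fin 4) ℤ} (h1 : Maj f F) (h2 : Maj g G) :
    Maj (f + g) (F + G) := by
  intro d
  rw [coeff_add, coeff_add]
  exact (abs_add_le _ _).trans (add_le_add (h1 d) (h2 d))

theorem Maj.mul {f g F G : MvPolynomial (Fin 4) ℤ} (h1 : Maj f F) (h2 : Maj g G) :
    Maj (f * g) (F * G) := by
  intro d
  rw [coeff_mul, coeff_mul]
  refine (Finset.abs_sum_le_sum_abs _ _).trans (Finset.sum_le_sum fun x _ => ?_)
  rw [abs_mul]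
  exact mul_le_mul (h1 _) (h2 _) (abs_nonneg _) ((abs_nonneg _).trans (h1 _))

theorem Maj.one : Maj 1 1 := by
  intro d
  have : (1 : MvPolynomial (Fin 4) ℤ) = C 1 := by simp
  rw [this, coeff_C]
  split_ifs <;> simp

theorem Maj.pow {f F : MvPolynomial (Fin 4) ℤ} (h : Maj f F) (n : ℕ) : Maj (f ^ n) (F ^ n) := by
  induction n with
  | zero => simpa using Maj.one
  | succ n ih =>
    rw [pow_succ, pow_succ]
    exact ih.mul h

/-- The expression with all constants replaced by their absolute values. -/
def PE.abs : PE → PE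
  | .v i => .v i
  | .c z => .c |z|
  | .add a b => .add a.abs b.abs
  | .mul a b => .mul a.abs b.abs
  | .pow a n => .pow a.abs n

theorem maj_den (e : PE) : Maj e.den e.abs.den := by
  induction e with
  | v i =>
    intro d
    simp only [PE.abs, PE.den]
    rw [coeff_X']
    split_ifs <;> simp
  | c z =>
    intro d
    simp only [PE.abs, PE.den]
    rw [coeff_C, coeff_C]
    split_ifs <;> simp
  | add a b iha ihb => exact iha.add ihb
  | mul a b iha ihb => exact iha.mul ihb
  | pow a n iha => exact iha.pow n

theorem ev_abs_one (e : PE) : PE.ev (fun _ => (1 : ℤ)) e.abs = e.nrm := by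
  induction e with
  | v i => simp [PE.abs, PE.ev, PE.nrm]
  | c z => simp [PE.abs, PE.ev, PE.nrm]
  | add a b iha ihb => simp [PE.abs, PE.ev, PE.nrm, iha, ihb]
  | mul a b iha ihb => simp [PE.abs, PE.ev, PE.nrm, iha, ihb]
  | pow a n iha => simp [PE.abs, PE.ev, PE.nrm, iha]

/-- Every coefficient is bounded by `nrm`. -/
theorem abs_coeff_le (e : PE) (d : Fin 4 →₀ ℕ) : |coeff d e.den| ≤ e.nrm := by
  have h1 := maj_den e
  refine (h1 d).trans ?_
  rw [← ev_abs_one, PE.ev_eq, aeval_def, eval₂_eq']
  have hnn : ∀ d' : Fin 4 →₀ ℕ, 0 ≤ coeff d' e.abs.den := fun d' => (abs_nonneg _).trans (h1 d')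
  by_cases hd : d ∈ e.abs.den.support
  · have := Finset.single_le_sum (f := fun d' => (algebraMap ℤ ℤ) (coeff d' e.abs.den) *
      ∏ i, (1 : ℤ) ^ d' i) (fun d' _ => by simpa using hnn d') hd
    simpa using this
  · rw [notMem_support_iff.mp hd]
    exact Finset.sum_nonneg fun d' _ => by simpa using hnn d'

end Vale.Agent.Util.Polya
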