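import Vale.Agent.Util.PolyExpr

/-!
# Expansion of homogeneous polynomial expressions and Kronecker substitution

A homogeneous expression `e` of degree `D < S` has the value
`ev p e = ∑ k < S ^ 3, cf k * mono p k`, where `k = a + S * b + S * S * c` codes the exponent vector
`(D - a - b - c, a, b, c)`.  At the point `(1, X, X ^ S, X ^ (S * S))` the value is the packed
sequence of the coefficients.
-/

namespace Vale.Agent.Util.Polya

open MvPolynomial Finset Pack

/-- The three exponents coded by `k`. -/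
def e1 (S k : ℕ) : ℕ := k % S
def e2 (S k : ℕ) : ℕ := k / S % S
def e3 (S k : ℕ) : ℕ := k / (S * S)

theorem code_decode (S k : ℕ) : e1 S k + S * e2 S k + S * S * e3 S k = k := by
  unfold e1 e2 e3
  have h1 := Nat.mod_add_div k S
  have h2 := Nat.mod_add_div (k / S) S
  rw [Nat.div_div_eq_div_mul] at h2
  calc k % S + S * (k / S % S) + S * S * (k / (S * S))
      = k % S + S * (k / S % S + S * (k / (S * S))) := by ring
    _ = k := by rw [h2, h1]

theorem decode_code {S a b c : ℕ} (ha : a < S) (hb : b < S) :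
    e1 S (a + S * b + S * S * c) = a ∧ e2 S (a + S * b + S * S * c) = b ∧
      e3 S (a + S * b + S * S * c) = c := by
  have hS : 0 < S := by omega
  have h0 : a + S * b + S * S * c = a + S * (b + S * c) := by ring
  have h1 : (a + S * (b + S * c)) / S = b + S * c := by
    rw [Nat.add_mul_div_left _ _ hS, Nat.div_eq_of_lt ha, Nat.zero_add]
  refine ⟨?_, ?_, ?_⟩
  · unfold e1
    rw [h0, Nat.add_mul_mod_self_left, Nat.mod_eq_of_lt ha]
  · unfold e2
    rw [h0, h1, Nat.add_mul_mod_self_left, Nat.mod_eq_of_lt hb]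
  · unfold e3
    rw [h0, ← Nat.div_div_eq_div_mul, h1, Nat.add_mul_div_left _ _ hS, Nat.div_eq_of_lt hb,
      Nat.zero_add]

/-- The exponent vector coded by `k`. -/
noncomputable def dvec (D S k : ℕ) : Fin 4 →₀ ℕ :=
  Finsupp.equivFunOnFinite.symm ![D - (e1 S k + e2 S k + e3 S k), e1 S k, e2 S k, e3 S k]

/-- The coefficient with code `k`. -/
noncomputable def cf (f : MvPolynomial (Fin 4) ℤ) (D S k : ℕ) : ℤ :=
  if e1 S k + e2 S k + e3 S k ≤ D then coeff (dvec D S k) f else 0

/-- The monomial with code `k`. -/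
def mono {R : Type} [CommRing R] (p : Fin 4 → R) (D S k : ℕ) : R :=
  p 0 ^ (D - (e1 S k + e2 S k + e3 S k)) * p 1 ^ e1 S k * p 2 ^ e2 S k * p 3 ^ e3 S k

theorem expand {R : Type} [CommRing R] (p : Fin 4 → R) (f : MvPolynomial (Fin 4) ℤ) (D S : ℕ)
    (hf : Hom f D) (hS : D < S) :
    aeval p f = ∑ k ∈ range (S * S * S), (cf f D S k : R) * mono p D S k := by
  rw [aeval_def, eval₂_eq']
  have hsup : ∀ d ∈ f.support, d 0 + d 1 + d 2 + d 3 = D := fun d hd => hf d (mem_support_iff.mp hd)
  have hdv : ∀ d ∈ f.support, dvec D S (d 1 + S * d 2 + S * S * d 3) = d := by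
    intro d hd
    have h := hsup d hd
    obtain ⟨h1, h2, h3⟩ := decode_code (S := S) (a := d 1) (b := d 2) (c := d 3) (by omega) (by omega)
    ext i
    unfold dvec
    rw [h1, h2, h3]
    fin_cases i
    · simp; omega
    · simp
    · simp
    · simp
  apply Finset.sum_of_injOn (fun d : Fin 4 →₀ ℕ => d 1 + S * d 2 + S * S * d 3)
  · intro d hd d' hd' h
    have h1 := hdv d hd
    have h2 := hdv d' hd'
    simp only at h
    rw [← h1, ← h2, h]
  · intro d hd
    have h := hsup d hd
    simp only [coe_range, Set.mem_Iio]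
    have h1 : d 1 ≤ S - 1 := by omega
    have h2 : d 2 ≤ S - 1 := by omega
    have h3 : d 3 ≤ S - 1 := by omega
    obtain ⟨T, rfl⟩ : ∃ T, S = T + 1 := ⟨S - 1, by omega⟩
    simp only [Nat.add_sub_cancel] at h1 h2 h3
    calc d 1 + (T + 1) * d 2 + (T + 1) * (T + 1) * d 3
        ≤ T + (T + 1) * T + (T + 1) * (T + 1) * T := by gcongr
      _ < (T + 1) * (T + 1) * (T + 1) := by nlinarith
  · intro k _ hk
    unfold cf
    split_ifs with hv
    · by_cases hc : coeff (dvec D S k) f = 0
      · rw [hc]; simp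
      · exfalso
        apply hk
        refine ⟨dvec D S k, mem_support_iff.mpr hc, ?_⟩
        have := code_decode S k
        simpa [dvec] using this
    · simp
  · intro d hd
    have h := hsup d hd
    obtain ⟨h1, h2, h3⟩ := decode_code (S := S) (a := d 1) (b := d 2) (c := d 3) (by omega) (by omega)
    have hv : e1 S (d 1 + S * d 2 + S * S * d 3) + e2 S (d 1 + S * d 2 + S * S * d 3) +
        e3 S (d 1 + S * d 2 + S * S * d 3) ≤ D := by rw [h1, h2, h3]; omega
    unfold cf mono
    rw [if_pos hv, hdv d hd, h1, h2, h3, Fin.prod_univ_four]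
    have h0 : D - (d 1 + d 2 + d 3) = d 0 := by omega
    rw [h0]
    simp only [eq_intCast]

theorem PE.expand {R : Type} [CommRing R] (p : Fin 4 → R) (e : PE) (S : ℕ) (hw : e.wf = true)
    (hS : e.deg < S) :
    PE.ev p e = ∑ k ∈ range (S * S * S), (cf e.den e.deg S k : R) * mono p e.deg S k := by
  rw [PE.ev_eq]
  exact Polya.expand p e.den e.deg S (hom_den e hw) hS

theorem abs_cf_le (e : PE) (D S k : ℕ) : |cf e.den D S k| ≤ e.nrm := by
  unfold cf
  split_ifs
  · exact abs_coeff_le e _
  · simp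

/-- The point of the Kronecker substitution. -/
def pt (X : ℤ) (S : ℕ) : Fin 4 → ℤ := ![1, X, X ^ S, X ^ (S * S)]

theorem mono_pt (X : ℤ) (D S k : ℕ) : mono (pt X S) D S k = X ^ k := by
  unfold mono pt
  simp only [Matrix.cons_val_zero, Matrix.cons_val_one, Matrix.cons_val]
  rw [one_pow, one_mul, ← pow_mul, ← pow_mul, ← pow_add, ← pow_add, code_decode]

theorem ev_pt (X : ℤ) (e : PE) (S : ℕ) (hw : e.wf = true) (hS : e.deg < S) :
    PE.ev (pt X S) e = pack X (S * S * S) (cf e.den e.deg S) := by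
  rw [PE.expand (pt X S) e S hw hS]
  unfold pack
  apply sum_congr rfl
  intro k _
  rw [mono_pt]
  simp

end Vale.Agent.Util.Polya
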