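import Vale.Agent.Util.PolyaCheck

/-!
# A faster version of the check of `PolyaCheck.lean`

`checkN` computes with natural numbers only (the values of the second expressions are shifted by a
large number `B`), which needs fewer operations with large numbers in the kernel.
`check_of_checkN`: `checkN = true` implies `check = true`.
-/

namespace Vale.Agent.Util.Polya

open Pack

def shiftP (B : ℕ) (P : List (ℕ × ℤ)) : List (ℕ × ℕ) :=
  P.map fun nv => (nv.1, (nv.2 + Int.ofNat B).toNat)

def shiftOk (B : ℕ) (P : List (ℕ × ℤ)) : Bool := P.all fun nv => decide (0 ≤ nv.2 + Int.ofNat B)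

def sumV : List (ℕ × ℤ) → ℤ
  | [] => 0
  | nv :: l => nv.2 + sumV l

/-- `row` with a mask instead of a division -/
def rowL (w S N r : ℕ) : ℕ := Nat.land (N >>> (w * S * r)) (2 ^ (w * S) - 1)

theorem rowL_eq (w S N r : ℕ) : rowL w S N r = row w S N r := by
  unfold rowL row
  exact Nat.and_two_pow_sub_one_eq_mod _ _

def rowsN (w S r : ℕ) (P : List (ℕ × ℕ)) : List (ℕ × ℕ) := P.map fun nv => (rowL w S nv.1 r, nv.2)

def tkA (w a : ℕ) : List (ℕ × ℕ) → ℕ
  | [] => 0
  | nv :: l => dig w nv.1 a * nv.2 + tkA w a l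

def tkS (w a : ℕ) : List (ℕ × ℕ) → ℕ
  | [] => 0
  | nv :: l => dig w nv.1 a + tkS w a l

def okD (XK M d : ℕ) : Bool := Nat.blt d XK && Nat.beq (Nat.land d M) 0

def okN (XK M p q : ℕ) : Bool := Nat.ble q p && okD XK M (p - q)

def loopN (w XK M B Wp Wn : ℕ) (P : List (ℕ × ℕ)) : ℕ → Bool
  | 0 => true
  | n + 1 => okN XK M (tkA w n P + Wn) (B * tkS w n P + Wp) && loopN w XK M B Wp Wn P n

def checkRowN (w S D XK M B Wp Wn : ℕ) (P : List (ℕ × ℕ)) (r : ℕ) : Bool :=
  loopN w XK M B Wp Wn (rowsN w S r P) (D + 1 - (r % S + r / S))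

def checkRowsN (w S D XK M B Wp Wn : ℕ) (P : List (ℕ × ℕ)) : ℕ → ℕ → Bool
  | _, 0 => true
  | r, n + 1 => checkRowN w S D XK M B Wp Wn P r && checkRowsN w S D XK M B Wp Wn P (r + 1) n

def checkN1 (w S D XK M : ℕ) (off : ℤ) (P : List (ℕ × ℤ)) (r0 n : ℕ) : Bool :=
  shiftOk XK P && checkRowsN w S D XK M XK (off * sumV P).toNat (-(off * sumV P)).toNat
    (shiftP XK P) r0 n

/-- The check of the rows `r0, ..., r0 + n - 1` with natural numbers. -/
def checkN (w S D : ℕ) (L : List (PE × PE)) (r0 n : ℕ) : Bool :=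
  checkN1 w S D ((2 ^ w) ^ (S * S * S)) (maskF w (S * S * S)) (Int.ofNat (2 ^ (w - 1)))
    (prep w S L) r0 n

theorem sumV_rows (w S r : ℕ) : ∀ P : List (ℕ × ℤ), sumV (rows w S r P) = sumV P := by
  intro P
  induction P with
  | nil => rfl
  | cons nv l ih =>
    have : rows w S r (nv :: l) = (row w S nv.1 r, nv.2) :: rows w S r l := rfl
    rw [this, sumV, sumV, ih]

theorem shiftP_rows (w S r B : ℕ) (P : List (ℕ × ℤ)) :
    shiftP B (rows w S r P) = rowsN w S r (shiftP B P) := by
  simp [shiftP, rows, rowsN, List.map_map, Function.comp_def, rowL_eq]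

theorem shiftOk_rows (w S r B : ℕ) (P : List (ℕ × ℤ)) :
    shiftOk B (rows w S r P) = shiftOk B P := by
  simp [shiftOk, rows, List.all_map, Function.comp_def]

theorem tk_eq (w a B : ℕ) (off : ℤ) : ∀ P : List (ℕ × ℤ), shiftOk B P = true →
    tk w a off P = (tkA w a (shiftP B P) : ℤ) - (B : ℤ) * (tkS w a (shiftP B P) : ℤ)
      - off * sumV P := by
  intro P
  induction P with
  | nil => intro _; simp [tk, tkA, tkS, shiftP, sumV]
  | cons nv l ih =>
    intro h
    have h' : (0 ≤ nv.2 + Int.ofNat B) ∧ shiftOk B l = true := by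
      simpa [shiftOk, List.all_cons, Bool.and_eq_true, decide_eq_true_eq] using h
    obtain ⟨h1, h2⟩ := h'
    have e : shiftP B (nv :: l) = (nv.1, (nv.2 + Int.ofNat B).toNat) :: shiftP B l := rfl
    rw [e, tk, tkA, tkS, sumV, ih h2]
    push_cast
    rw [Int.toNat_of_nonneg h1]
    simp only [Int.ofNat_eq_natCast]
    ring

theorem okT_of_okN (XK M p q : ℕ) (t : ℤ) (ht : t = (p : ℤ) - (q : ℤ))
    (h : okN XK M p q = true) : okT XK M t = true := by
  simp only [okN, Bool.and_eq_true, Nat.ble_eq] at h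
  obtain ⟨h1, h2⟩ := h
  have : t = Int.ofNat (p - q) := by
    rw [ht, Int.ofNat_eq_natCast, Nat.cast_sub h1]
  rw [this]
  exact h2

theorem loopA_of_loopN (w XK M B : ℕ) (off : ℤ) (P : List (ℕ × ℤ)) (W : ℤ)
    (hW : W = off * sumV P) (hok : shiftOk B P = true) : ∀ n : ℕ,
    loopN w XK M B W.toNat (-W).toNat (shiftP B P) n = true → loopA w XK M off P n = true := by
  intro n
  induction n with
  | zero => intro _; rfl
  | succ n ih =>
    intro h
    simp only [loopN, Bool.and_eq_true] at h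
    simp only [loopA, Bool.and_eq_true]
    refine ⟨okT_of_okN XK M _ _ _ ?_ h.1, ih h.2⟩
    rw [tk_eq w n B off P hok, ← hW]
    have hWW : (W.toNat : ℤ) - ((-W).toNat : ℤ) = W := Int.toNat_sub_toNat_neg W
    push_cast
    linarith

theorem checkRows_of_checkRowsN (w S D XK M B : ℕ) (off : ℤ) (P : List (ℕ × ℤ))
    (hok : shiftOk B P = true) : ∀ (n r : ℕ),
    checkRowsN w S D XK M B (off * sumV P).toNat (-(off * sumV P)).toNat (shiftP B P) r n = true →
    checkRows w S D XK M off P r n = true := by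
  intro n
  induction n with
  | zero => intro r _; rfl
  | succ n ih =>
    intro r h
    simp only [checkRowsN, Bool.and_eq_true] at h
    simp only [checkRows, Bool.and_eq_true]
    refine ⟨?_, ih _ h.2⟩
    have h1 := h.1
    unfold checkRowN at h1
    unfold checkRow
    rw [← shiftP_rows] at h1
    exact loopA_of_loopN w XK M B off (rows w S r P) (off * sumV P) (by rw [sumV_rows])
      (by rw [shiftOk_rows]; exact hok) _ h1

theorem check_of_checkN {w S D : ℕ} {L : List (PE × PE)} {r0 n : ℕ}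
    (h : checkN w S D L r0 n = true) : check w S D L r0 n = true := by
  unfold checkN checkN1 at h
  rw [Bool.and_eq_true] at h
  exact checkRows_of_checkRowsN w S D _ _ _ _ _ h.1 n r0 h.2

end Vale.Agent.Util.Polya
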